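import Mathlib

/-! # P097 / case c: the two sided cone bound, uniformly on a compact set of labels -/

set_option linter.all false

open Complex Metric Filter Topology Set MeasureTheory
open scoped ENNReal

namespace Vale.Agent.P097.H21

/-- Egorov without functions: closed sets `F m l` increasing in `l`; almost every point of `B` is,
for every `m`, in some `F m l`; then some intersection of the `F m (l m)` is large. -/
theorem egorov_closed {B : Set ℝ} (F : ℕ → ℕ → Set ℝ) (hF : ∀ m l, IsClosed (F m l))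
    (hmono : ∀ m, Monotone (F m)) (hB : MeasurableSet B) (hfin : volume B ≠ ⊤)
    (hcov : ∀ m, B ⊆ ⋃ l, F m l) {μ : ℝ≥0∞} (hμ : μ < volume B) :
    ∃ l : ℕ → ℕ, μ < volume (B ∩ ⋂ m, F m (l m)) := by
  obtain ⟨ε, hε, hε'⟩ : ∃ ε : ℝ≥0∞, ε ≠ 0 ∧ μ + ε < volume B := by
    obtain ⟨x, hx1, hx2⟩ := exists_between hμ
    have hμt : μ ≠ ⊤ := (hμ.trans_le le_top).ne
    refine ⟨x - μ, (tsub_pos_of_lt hx1).ne', ?_⟩
    rwa [add_tsub_cancel_of_le hx1.le]
  obtain ⟨e, he0, hesum⟩ := ENNReal.exists_pos_sum_of_countable' hε ℕ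
  have hl : ∀ m, ∃ l, volume (B \ F m l) ≤ e m := by
    intro m
    have h1 : Tendsto (fun l => volume (B \ F m l)) atTop (𝓝 (volume (⋂ l, B \ F m l))) := by
      refine tendsto_measure_iInter_atTop (fun l => (hB.diff (hF m l).measurableSet).nullMeasurableSet)
        (fun i j hij => diff_subset_diff_right (hmono m hij))
        ⟨0, ((measure_mono diff_subset).trans_lt hfin.lt_top).ne⟩
    have h2 : (⋂ l, B \ F m l) = ∅ := by
      rw [← diff_iUnion, diff_eq_empty]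
      exact hcov m
    rw [h2, measure_empty] at h1
    obtain ⟨l, hl⟩ := (h1.eventually_lt_const (he0 m)).exists
    exact ⟨l, hl.le⟩
  choose l hl using hl
  refine ⟨l, ?_⟩
  have h3 : volume (B \ ⋂ m, F m (l m)) ≤ ∑' m, e m := by
    rw [diff_iInter]
    exact (measure_iUnion_le _).trans (ENNReal.tsum_le_tsum hl)
  have h4 : volume B ≤ volume (B ∩ ⋂ m, F m (l m)) + volume (B \ ⋂ m, F m (l m)) := by
    conv_lhs => rw [← inter_union_diff B (⋂ m, F m (l m))]
    exact measure_union_le _ _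
  by_contra hcon
  rw [not_lt] at hcon
  have h5 : volume B ≤ μ + ε := h4.trans (add_le_add hcon (h3.trans hesum.le))
  exact absurd hε' (not_lt.2 h5)

/-- the set of labels with the cone bound of given constants -/
def CF (R : ℂ → ℝ) (A : Set ℝ) (p c : ℝ → ℝ) (K ε δ : ℝ) : Set ℝ :=
  {u | u ∈ A ∧ ∀ v : ℂ, ‖v‖ < δ → p u + c u * v.re - K * |v.im| - ε * ‖v‖ ≤ R (u + v)}

theorem CF_closed {R : ℂ → ℝ} {A : Set ℝ} (hA : IsClosed A) {p c : ℝ → ℝ}
    (hp : ContinuousOn p A) (hc : ContinuousOn c A) (K ε δ : ℝ) : IsClosed (CF R A p c K ε δ) := by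
  refine IsSeqClosed.isClosed ?_
  intro x u hx hxu
  have huA : u ∈ A := hA.mem_of_tendsto hxu (Eventually.of_forall fun n => (hx n).1)
  refine ⟨huA, fun v hv => ?_⟩
  have hin : Tendsto x atTop (𝓝[A] u) :=
    tendsto_nhdsWithin_iff.2 ⟨hxu, Eventually.of_forall fun n => (hx n).1⟩
  have h1 : Tendsto (fun n => p (x n)) atTop (𝓝 (p u)) := (hp u huA).tendsto.comp hin
  have h2 : Tendsto (fun n => c (x n)) atTop (𝓝 (c u)) := (hc u huA).tendsto.comp hin
  have h3 : Tendsto (fun n => (u : ℂ) + v - (x n : ℂ)) atTop (𝓝 v) := by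
    have := (tendsto_const_nhds (x := (u : ℂ) + v)).sub
      ((Complex.continuous_ofReal.tendsto u).comp hxu)
    simpa using this
  have h4 : Tendsto (fun n => p (x n) + c (x n) * ((u : ℂ) + v - (x n : ℂ)).re
      - K * |((u : ℂ) + v - (x n : ℂ)).im| - ε * ‖(u : ℂ) + v - (x n : ℂ)‖) atTop
      (𝓝 (p u + c u * v.re - K * |v.im| - ε * ‖v‖)) := by
    refine ((h1.add (h2.mul ((Complex.continuous_re.tendsto v).comp h3))).sub
      (tendsto_const_nhds.mul ?_)).sub (tendsto_const_nhds.mul ?_)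
    · exact (((Complex.continuous_im.tendsto v).comp h3).abs)
    · exact h3.norm
  have h5 : ∀ᶠ n in atTop, ‖(u : ℂ) + v - (x n : ℂ)‖ < δ := h3.norm.eventually_lt_const hv
  refine le_of_tendsto h4 ?_
  filter_upwards [h5] with n hn
  have h6 := (hx n).2 _ hn
  have h7 : ((x n : ℝ) : ℂ) + ((u : ℂ) + v - (x n : ℂ)) = u + v := by ring
  rwa [h7] at h6

/-- **uniform two sided cone bound**: the hypothesis is the last clause of
`H222.SupB.exists_psi` (constants depending on the label) at almost every label of `A`. -/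
theorem coneU {R : ℂ → ℝ} {A : Set ℝ} (hA : IsCompact A) {p c : ℝ → ℝ}
    (hp : ContinuousOn p A) (hc : ContinuousOn c A)
    (h : ∀ᵐ u : ℝ, u ∈ A → ∃ k : ℝ, ∀ ε > 0, ∃ δ > 0, ∀ v : ℂ, ‖v‖ < δ →
      p u + c u * v.re + k * |v.im| - ε * ‖v‖ ≤ R (u + v))
    {μ : ℝ≥0∞} (hμ : μ < volume A) :
    ∃ A' ⊆ A, IsCompact A' ∧ μ < volume A' ∧ ∃ K : ℝ, 0 ≤ K ∧ ∀ ε > 0, ∃ δ > 0, ∀ u ∈ A',
      ∀ v : ℂ, ‖v‖ < δ → p u + c u * v.re - K * |v.im| - ε * ‖v‖ ≤ R (u + v) := by
  set G : ℕ → ℕ → ℕ → Set ℝ := fun N m l => CF R A p c N (1 / (m + 1)) (1 / (l + 1)) with hG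
  have hGc : ∀ N m l, IsClosed (G N m l) := fun N m l => CF_closed hA.isClosed hp hc _ _ _
  have hGl : ∀ N m, Monotone (G N m) := by
    intro N m l l' hll u hu
    refine ⟨hu.1, fun v hv => hu.2 v (hv.trans_le ?_)⟩
    exact one_div_le_one_div_of_le (by positivity) (by exact_mod_cast Nat.succ_le_succ hll)
  have hGN : ∀ m l, Monotone fun N => G N m l := by
    intro m l N N' hNN u hu
    refine ⟨hu.1, fun v hv => le_trans ?_ (hu.2 v hv)⟩
    have : (N : ℝ) * |v.im| ≤ (N' : ℝ) * |v.im| :=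
      mul_le_mul_of_nonneg_right (by exact_mod_cast hNN) (abs_nonneg _)
    linarith
  set B : ℕ → Set ℝ := fun N => ⋂ m, ⋃ l, G N m l with hB
  have hBm : ∀ N, MeasurableSet (B N) := fun N =>
    MeasurableSet.iInter fun m => MeasurableSet.iUnion fun l => (hGc N m l).measurableSet
  have hBmono : Monotone B := fun N N' hNN =>
    iInter_mono fun m => iUnion_mono fun l => hGN m l hNN
  have hBA : ∀ N, B N ⊆ A := by
    intro N u hu
    have h1 := mem_iInter.1 hu 0
    obtain ⟨l, hl⟩ := mem_iUnion.1 h1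
    exact hl.1
  have hcov : ∀ᵐ u : ℝ, u ∈ A → u ∈ ⋃ N, B N := by
    filter_upwards [h] with u hu huA
    obtain ⟨k, hk⟩ := hu huA
    obtain ⟨N, hN⟩ := exists_nat_ge (-k)
    refine mem_iUnion.2 ⟨N, mem_iInter.2 fun m => ?_⟩
    obtain ⟨δ, hδ, h1⟩ := hk (1 / (m + 1)) (by positivity)
    obtain ⟨l, hl⟩ := exists_nat_one_div_lt hδ
    refine mem_iUnion.2 ⟨l, huA, fun v hv => le_trans ?_ (h1 v (hv.trans hl))⟩
    have : (-k) * |v.im| ≤ (N : ℝ) * |v.im| := mul_le_mul_of_nonneg_right hN (abs_nonneg _)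
    linarith
  have hvol : volume A ≤ volume (⋃ N, B N) := measure_mono_ae hcov
  have hN : ∃ N, μ < volume (B N) := by
    have h1 := hμ.trans_le hvol
    rw [hBmono.measure_iUnion] at h1
    exact lt_iSup_iff.1 h1
  obtain ⟨N, hN⟩ := hN
  have hfin : volume (B N) ≠ ⊤ := ((measure_mono (hBA N)).trans_lt hA.measure_lt_top).ne
  obtain ⟨l, hl⟩ := egorov_closed (G N) (hGc N) (hGl N) (hBm N) hfin
    (fun m u hu => mem_iInter.1 hu m) hN
  refine ⟨⋂ m, G N m (l m), ?_, ?_, ?_, N, Nat.cast_nonneg N, fun ε hε => ?_⟩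
  · intro u hu
    exact (mem_iInter.1 hu 0).1
  · exact hA.of_isClosed_subset (isClosed_iInter fun m => hGc N m (l m))
      fun u hu => (mem_iInter.1 hu 0).1
  · exact hl.trans_le (measure_mono inter_subset_right)
  · obtain ⟨m, hm⟩ := exists_nat_one_div_lt hε
    refine ⟨1 / (l m + 1), by positivity, fun u hu v hv => le_trans ?_ ((mem_iInter.1 hu m).2 v hv)⟩
    have : (1 / ((m : ℝ) + 1)) * ‖v‖ ≤ ε * ‖v‖ := mul_le_mul_of_nonneg_right hm.le (norm_nonneg _)
    linarith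

end Vale.Agent.P097.H21
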